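import Vale.Agent.P159.T1.H409.Ratio
import Vale.Agent.P159.H950.C2

/-!
Monotonicity of regions with free spins: ratios of partition functions and quadratic forms,
cells with pinned vertices, and the upper bound of the quadratic form by the stiffness.
-/

set_option linter.all false
set_option autoImplicit false

open MeasureTheory Filter Topology
open scoped BigOperators

namespace Vale.Agent.P159.T1.H409

open Vale.Agent.P159 Vale.Agent.P159.UJ Vale.Agent.P159.H950 Vale.Agent.P159.T1.H931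

section Q

variable {G : Type*} [AddCommGroup G] [TopologicalSpace G] [IsTopologicalAddGroup G]
  [CompactSpace G] [SecondCountableTopology G] [MeasurableSpace G] [BorelSpace G]
  (μ : Measure G) [μ.IsAddHaarMeasure] [IsProbabilityMeasure μ]
  {κ : Type*} [Fintype κ] (J : κ → ℝ) (χ : κ → Chr G)

/-- a Gaussian lower bound for small twists bounds the quadratic form -/
theorem Qform_le_of_lower (hJ : ∀ e, 0 ≤ J e) (a : κ → ℝ) {A : ℝ}
    (h : ∀ u : ℝ, 0 < u → u ≤ 1 →
      Real.exp (-(u ^ 2 * A / 2)) * Zr μ J χ 0 ≤ Zr μ J χ (u • a)) :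
    Qform μ J χ a ≤ A := by
  obtain ⟨S, hS⟩ : ∃ S, S = ∑ e, J e := ⟨_, rfl⟩
  have hS0 : 0 ≤ S := by rw [hS]; exact Finset.sum_nonneg fun e _ => hJ e
  obtain ⟨B, hB⟩ : ∃ B, B = 1 + ∑ e, |a e| := ⟨_, rfl⟩
  have hB1 : 1 ≤ B := by
    rw [hB]; linarith only [Finset.sum_nonneg fun e (_ : e ∈ Finset.univ) => abs_nonneg (a e)]
  have haB : ∀ e, |a e| ≤ B := by
    intro e
    have : |a e| ≤ ∑ e, |a e| := Finset.single_le_sum (f := fun e => |a e|)
      (fun e _ => abs_nonneg (a e)) (Finset.mem_univ e)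
    linarith only [hB, this]
  have hK : 0 ≤ K3 S := by unfold K3; positivity
  have hden : 0 < 6 * (S + 1) * B := by positivity
  have hQ : Qform μ J χ a = ex μ J χ 0 (Bt J χ 0 a a) -
      ex μ J χ 0 (fun x => Jt J χ 0 a x * Jt J χ 0 a x) := by
    rw [← QQ_zero]
    unfold QQ
    rw [jm_zero]
    ring
  have key : ∀ u : ℝ, 0 < u → u ≤ 1 / (6 * (S + 1) * B) →
      Qform μ J χ a - A ≤ 2 * K3 S * B ^ 3 * u := by
    intro u hu huA
    rw [le_div_iff₀ hden] at huA
    have hB0 : 0 ≤ B := by linarith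
    have hp1 := mul_nonneg (mul_nonneg hu.le hS0) hB0
    have hu1 : u ≤ 1 := by
      nlinarith only [huA, hS0, hB1, hu, hp1]
    have hua : |u| * B ≤ 1 := by
      rw [abs_of_pos hu]
      have : 0 ≤ u * B := by positivity
      nlinarith only [huA, hS0, this, mul_nonneg hS0 this]
    have hSu : 6 * (∑ e, J e) * (|u| * B) ≤ 1 := by
      rw [abs_of_pos hu, ← hS]
      have : 0 ≤ u * B := by positivity
      nlinarith only [huA, hS0, this, mul_nonneg hS0 this]
    have h1 := ratio_expand_smul μ J χ hJ (t := 0) (a := a) (u := u) (A := B) (by linarith)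
      hua hSu haB
    rw [zero_add, jm_zero, ← hQ, abs_of_pos hu, ← hS] at h1
    have h3 := (abs_le.1 h1).2
    have h0 := Zr_pos μ J χ 0
    have h4 := h u hu hu1
    rw [← le_div_iff₀ h0] at h4
    have h5 := Real.add_one_le_exp (-(u ^ 2 * A / 2))
    have h6 : u ^ 2 * (Qform μ J χ a - A) ≤ u ^ 2 * (2 * K3 S * B ^ 3 * u) := by
      have : (u * B) ^ 3 = u ^ 3 * B ^ 3 := by ring
      rw [this] at h3
      nlinarith only [h3, h4, h5]
    exact le_of_mul_le_mul_left h6 (by positivity)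
  have := aux_le (D := Qform μ J χ a - A) (C := 2 * K3 S * B ^ 3)
    (u0 := 1 / (6 * (S + 1) * B)) (by positivity) key
  linarith

end Q

/-! ### Regions -/

/-- the half-bonds of a subregion -/
theorem zI_sub (b : ℝ) {R R' : Finset (ℤ × ℤ)} (h : R' ⊆ R) (I : Set (ℤ × ℤ)) (y : Fld) :
    Zr muInf (fun e : KR R => if e.1.1 ∈ R' then b / 2 else 0) (chiI R I) (twR R y) =
      zI b R' I y := by
  rw [zI_eq]
  unfold Zr
  congr 1
  ext x
  congr 1
  have e1 : ∀ e : KR R, (if e.1.1 ∈ R' then b / 2 else 0) *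
      ((chiI R I e).c x * Real.cos (twR R y e) - (chiI R I e).s x * Real.sin (twR R y e)) =
      (fun c t => if c ∈ R' then bE b I y x c t else 0 : ℤ × ℤ → HT → ℝ) e.1 e.2 := by
    intro e
    simp only
    split_ifs
    · rfl
    · rw [zero_mul]
  rw [Finset.sum_congr rfl fun e _ => e1 e,
    sum_KR' R (fun c t => if c ∈ R' then bE b I y x c t else 0)]
  unfold eI
  rw [← Finset.sum_subset h]
  · refine Finset.sum_congr rfl fun c hc => Finset.sum_congr rfl fun t _ => ?_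
    rw [if_pos hc]
  · intro c _ hc
    refine Finset.sum_eq_zero fun t _ => ?_
    rw [if_neg hc]

/-- adding cells -/
theorem zI_ratio_R {b : ℝ} (hb : 0 ≤ b) {R R' : Finset (ℤ × ℤ)} (h : R' ⊆ R)
    (I : Set (ℤ × ℤ)) (y : Fld) :
    zI b R I y * zI b R' I 0 ≤ zI b R' I y * zI b R I 0 := by
  have h1 := ratio_coupling muInf (chiI R I) G_div2
    (J := fun e : KR R => if e.1.1 ∈ R' then b / 2 else 0) (K := fun _ => b / 2)
    (fun e => by
      split_ifs
      · linarith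
      · exact le_refl _)
    (fun e => by
      split_ifs
      · exact le_refl _
      · linarith) (twR R y)
  have e0 : (0 : KR R → ℝ) = twR R 0 := rfl
  rw [e0, zI_sub b h, zI_sub b h] at h1
  exact h1

/-- pinning spins -/
theorem zI_ratio_I {b : ℝ} (hb : 0 ≤ b) (R : Finset (ℤ × ℤ)) {I I' : Set (ℤ × ℤ)}
    (h : I ⊆ I') (y : Fld) :
    zI b R I y * zI b R I' 0 ≤ zI b R I' y * zI b R I 0 := by
  have h1 := ratio_pin muInf (fun _ : KR R => b / 2) (chiI R I') G_div2 (half_nonneg' hb R)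
    (proj I) (proj_cont _) (twR R y)
  have hp : ∀ (x : Ginf) (v : ℤ × ℤ), proj I' (proj I x) v = proj I x v := by
    intro x v
    by_cases h2 : v ∈ I
    · rw [proj_of_mem (h h2)]
    · rw [proj_of_notMem h2]
      by_cases h3 : v ∈ I'
      · rw [proj_of_mem h3, proj_of_notMem h2]
      · rw [proj_of_notMem h3]
  have e1 : ∀ y : Fld, Zr muInf (fun _ : KR R => b / 2)
      (fun e => (chiI R I' e).comp (proj I) (proj_cont _)) (twR R y) = zI b R I y := by
    intro y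
    unfold zI Zr
    congr 1
    ext x
    congr 1
    refine Finset.sum_congr rfl fun e _ => ?_
    have c1 : ((chiI R I' e).comp (proj I) (proj_cont _)).c x = (chiI R I e).c x := by
      show cosT (proj I' (proj I x) (hu e.1 e.2) - proj I' (proj I x) (hv e.1 e.2)) =
        cosT (proj I x (hu e.1 e.2) - proj I x (hv e.1 e.2))
      rw [hp, hp]
    have c2 : ((chiI R I' e).comp (proj I) (proj_cont _)).s x = (chiI R I e).s x := by
      show sinT (proj I' (proj I x) (hu e.1 e.2) - proj I' (proj I x) (hv e.1 e.2)) =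
        sinT (proj I x (hu e.1 e.2) - proj I x (hv e.1 e.2))
      rw [hp, hp]
    rw [c1, c2]
  have e0 : (0 : KR R → ℝ) = twR R 0 := rfl
  rw [e0, e1, e1] at h1
  exact h1

/-- `I` and `I ∩ I'` give the same partition function if the free spins of the region lie in `I'` -/
theorem zI_inter {b : ℝ} {R : Finset (ℤ × ℤ)} {I I' : Set (ℤ × ℤ)}
    (h : ∀ c ∈ R, ∀ t, (hu c t ∈ I → hu c t ∈ I') ∧ (hv c t ∈ I → hv c t ∈ I')) (y : Fld) :
    zI b R I y = zI b R (I ∩ I') y := by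
  rw [zI_eq, zI_eq]
  congr 1
  ext x
  congr 1
  exact eI_congr fun c hc => ⟨fun _ => rfl, fun t =>
    ⟨⟨fun h1 => ⟨h1, (h c hc t).1 h1⟩, fun h1 => h1.1⟩,
      ⟨fun h1 => ⟨h1, (h c hc t).2 h1⟩, fun h1 => h1.1⟩⟩⟩

/-- **monotonicity of the ratio `Z(y)/Z(0)`**: more cells and more pinned spins decrease it -/
theorem zI_ratio_mono {b : ℝ} (hb : 0 ≤ b) {R R' : Finset (ℤ × ℤ)} (hR : R' ⊆ R)
    {I I' : Set (ℤ × ℤ)}
    (hI : ∀ c ∈ R', ∀ t, (hu c t ∈ I → hu c t ∈ I') ∧ (hv c t ∈ I → hv c t ∈ I')) (y : Fld) :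
    zI b R I y * zI b R' I' 0 ≤ zI b R' I' y * zI b R I 0 := by
  have h1 := zI_ratio_R hb hR I y
  have h2 := zI_ratio_I hb R' (Set.inter_subset_right : I ∩ I' ⊆ I') y
  rw [← zI_inter hI, ← zI_inter hI] at h2
  have p1 := zI_pos b R' I 0
  have p2 := zI_pos b R' I' 0
  have p3 := zI_pos b R I 0
  refine le_of_mul_le_mul_right (a := zI b R' I 0) ?_ p1
  calc zI b R I y * zI b R' I' 0 * zI b R' I 0
      = (zI b R I y * zI b R' I 0) * zI b R' I' 0 := by ring
    _ ≤ (zI b R' I y * zI b R I 0) * zI b R' I' 0 := mul_le_mul_of_nonneg_right h1 p2.le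
    _ = (zI b R' I y * zI b R' I' 0) * zI b R I 0 := by ring
    _ ≤ (zI b R' I' y * zI b R' I 0) * zI b R I 0 := mul_le_mul_of_nonneg_right h2 p3.le
    _ = zI b R' I' y * zI b R I 0 * zI b R' I 0 := by ring

/-- lower bound of the ratio by the quadratic form -/
theorem zI_lower {b : ℝ} (hb : 0 ≤ b) (R : Finset (ℤ × ℤ)) (I : Set (ℤ × ℤ)) (y : Fld) :
    Real.exp (-(qI b R I y / 2)) * zI b R I 0 ≤ zI b R I y := by
  have h := lowerZ muInf (fun _ : KR R => b / 2) (chiI R I) G_div2 (half_nonneg' hb R) (twR R y)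
  rw [QQ_zero] at h
  have h0 := zI_pos b R I 0
  have e : Zr muInf (fun _ : KR R => b / 2) (chiI R I) 0 = zI b R I 0 := rfl
  rw [e, le_div_iff₀ h0, neg_div] at h
  exact h

theorem qI_smul' (b : ℝ) (R : Finset (ℤ × ℤ)) (I : Set (ℤ × ℤ)) (s : ℝ) (y : Fld) :
    qI b R I (s • y) = s ^ 2 * qI b R I y :=
  Qform_smul muInf _ _ s (twR R y)

/-- a Gaussian lower bound for small twists bounds the quadratic form -/
theorem qI_le_of_lower {b : ℝ} (hb : 0 ≤ b) (R : Finset (ℤ × ℤ)) (I : Set (ℤ × ℤ)) (y : Fld)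
    {A : ℝ} (h : ∀ u : ℝ, 0 < u → u ≤ 1 →
      Real.exp (-(u ^ 2 * A / 2)) * zI b R I 0 ≤ zI b R I (u • y)) :
    qI b R I y ≤ A :=
  Qform_le_of_lower muInf (fun _ : KR R => b / 2) (chiI R I) (half_nonneg' hb R) (twR R y)
    fun u h1 h2 => h u h1 h2

/-- **monotonicity of the quadratic form** -/
theorem qI_mono {b : ℝ} (hb : 0 ≤ b) {R R' : Finset (ℤ × ℤ)} (hR : R' ⊆ R)
    {I I' : Set (ℤ × ℤ)}
    (hI : ∀ c ∈ R', ∀ t, (hu c t ∈ I → hu c t ∈ I') ∧ (hv c t ∈ I → hv c t ∈ I')) (y : Fld) :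
    qI b R' I' y ≤ qI b R I y := by
  refine qI_le_of_lower hb R' I' y fun u hu hu1 => ?_
  have h1 := zI_lower hb R I (u • y)
  have h2 := zI_ratio_mono hb hR hI (u • y)
  rw [qI_smul'] at h1
  have p3 := zI_pos b R I 0
  have p4 := zI_pos b R' I' 0
  refine le_of_mul_le_mul_right (a := zI b R I 0) ?_ p3
  calc Real.exp (-(u ^ 2 * qI b R I y / 2)) * zI b R' I' 0 * zI b R I 0
      = (Real.exp (-(u ^ 2 * qI b R I y / 2)) * zI b R I 0) * zI b R' I' 0 := by ring
    _ ≤ zI b R I (u • y) * zI b R' I' 0 := mul_le_mul_of_nonneg_right h1 p4.le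
    _ ≤ _ := h2

/-! ### Cells with pinned vertices -/

/-- cells all of whose vertices are pinned contribute a factor -/
theorem zI_pinned (b : ℝ) {R E : Finset (ℤ × ℤ)} (hd : Disjoint R E) {I : Set (ℤ × ℤ)}
    (hE : ∀ c ∈ E, ∀ t, hu c t ∉ I ∧ hv c t ∉ I) (y : Fld) :
    zI b (R ∪ E) I y = Real.exp (∑ c ∈ E, ∑ t : HT, b / 2 * Real.cos (y c t.1)) * zI b R I y := by
  rw [zI_eq, zI_eq, ← integral_const_mul]
  congr 1
  ext x
  rw [← Real.exp_add, eI_union b hd, add_comm]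
  congr 2
  refine Finset.sum_congr rfl fun c hc => Finset.sum_congr rfl fun t _ => ?_
  unfold bE
  rw [proj_of_notMem (hE c hc t).1, proj_of_notMem (hE c hc t).2, sub_zero, cosT_zero, sinT_zero]
  ring

theorem sum_cos_ge {b : ℝ} (hb : 0 ≤ b) (E : Finset (ℤ × ℤ)) (y : Fld) :
    (∑ c ∈ E, ∑ t : HT, b / 2 * Real.cos ((0 : Fld) c t.1)) - b * nR E y / 2 ≤
      ∑ c ∈ E, ∑ t : HT, b / 2 * Real.cos (y c t.1) := by
  unfold nR
  rw [mul_div_assoc, Finset.sum_div, Finset.mul_sum, ← Finset.sum_sub_distrib]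
  refine Finset.sum_le_sum fun c _ => ?_
  have h1 : ∀ d : Bool, 1 - y c d ^ 2 / 2 ≤ Real.cos (y c d) := fun d =>
    Real.one_sub_sq_div_two_le_cos
  simp only [Fintype.sum_prod_type, Fintype.sum_bool, Pi.zero_apply, Real.cos_zero, sq2]
  have h2 := mul_le_mul_of_nonneg_left (h1 true) hb
  have h3 := mul_le_mul_of_nonneg_left (h1 false) hb
  linarith

/-- the quadratic form of a region with pinned cells -/
theorem qI_pinned {b : ℝ} (hb : 0 ≤ b) {R E : Finset (ℤ × ℤ)} (hd : Disjoint R E)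
    {I : Set (ℤ × ℤ)} (hE : ∀ c ∈ E, ∀ t, hu c t ∉ I ∧ hv c t ∉ I) (y : Fld) :
    qI b (R ∪ E) I y ≤ qI b R I y + b * nR E y := by
  refine qI_le_of_lower hb _ I y fun u hu hu1 => ?_
  have h1 := zI_lower hb R I (u • y)
  have h2 := sum_cos_ge hb E (u • y)
  rw [qI_smul'] at h1
  rw [nR_smul] at h2
  rw [zI_pinned b hd hE, zI_pinned b hd hE]
  have h3 : Real.exp (-(u ^ 2 * (qI b R I y + b * nR E y) / 2)) *
      (Real.exp (∑ c ∈ E, ∑ t : HT, b / 2 * Real.cos ((0 : Fld) c t.1)) * zI b R I 0) =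
      Real.exp ((∑ c ∈ E, ∑ t : HT, b / 2 * Real.cos ((0 : Fld) c t.1)) -
        b * (u ^ 2 * nR E y) / 2) * (Real.exp (-(u ^ 2 * qI b R I y / 2)) * zI b R I 0) := by
    rw [← mul_assoc, ← mul_assoc, ← Real.exp_add, ← Real.exp_add]
    congr 2
    ring
  rw [h3]
  have p1 := zI_pos b R I 0
  exact mul_le_mul (Real.exp_le_exp.2 h2) h1 (by positivity) (Real.exp_pos _).le

end Vale.Agent.P159.T1.H409
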