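import Vale.Agent.P159.T1.H931.Dom

/-!
Monotonicity of the ratio `Z(y)/Z(0)` in the couplings and in the pinned set, for every real
twist `y`.
-/

set_option linter.all false
set_option autoImplicit false

open MeasureTheory Filter Topology
open scoped BigOperators

namespace Vale.Agent.P159.T1.H409

open Vale.Agent.P159 Vale.Agent.P159.UJ Vale.Agent.P159.H950 Vale.Agent.P159.T1.H931

section Kernel

variable {X : Type*} [TopologicalSpace X] [CompactSpace X] [SecondCountableTopology X]
  [MeasurableSpace X] [BorelSpace X] {μ : Measure X} [IsFiniteMeasure μ]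

/-- separable kernels, general version -/
theorem kernel_hasSum {κ : Type*} [Fintype κ] (l : κ → ℝ) (f g : κ → X → ℝ)
    (hf : ∀ k, Continuous (f k)) (hg : ∀ k, Continuous (g k)) :
    HasSum (fun n : ℕ => (∑ w : Fin n → κ, (∏ i, l (w i)) *
      ((∫ x, ∏ i, f (w i) x ∂μ) * ∫ x, ∏ i, g (w i) x ∂μ)) / (n.factorial : ℝ))
      (∫ p : X × X, Real.exp (∑ k, l k * (f k p.1 * g k p.2)) ∂(μ.prod μ)) := by
  have h2 : Continuous (fun p : X × X => ∑ k, l k * (f k p.1 * g k p.2)) :=
    continuous_finsetSum _ fun k _ =>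
      continuous_const.mul (((hf _).comp continuous_fst).mul ((hg _).comp continuous_snd))
  have h := hasSum_integral_exp_real (μ := μ.prod μ) (H := fun _ => 1) continuous_const h2
  simp only [one_mul] at h
  have e : ∀ n : ℕ, (∑ w : Fin n → κ, (∏ i, l (w i)) *
      ((∫ x, ∏ i, f (w i) x ∂μ) * ∫ x, ∏ i, g (w i) x ∂μ)) =
      ∫ p : X × X, (∑ k, l k * (f k p.1 * g k p.2)) ^ n ∂(μ.prod μ) := by
    intro n
    simp_rw [Fintype.sum_pow]
    rw [integral_finsetSum]
    · refine Finset.sum_congr rfl fun w _ => ?_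
      rw [← integral_prod_mul, ← integral_const_mul]
      congr 1
      ext p
      simp only [Finset.prod_mul_distrib]
    · intro w _
      apply cint
      refine continuous_finsetProd _ fun i _ => ?_
      exact continuous_const.mul (((hf _).comp continuous_fst).mul ((hg _).comp continuous_snd))
  simp_rw [e]
  exact h

/-- monotonicity in the coefficients of a kernel -/
theorem kernel_le {κ : Type*} [Fintype κ] (l l' : κ → ℝ) (h : ∀ k, |l' k| ≤ l k)
    (f : κ → X → ℝ) (hf : ∀ k, Continuous (f k)) :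
    ∫ p : X × X, Real.exp (∑ k, l' k * (f k p.1 * f k p.2)) ∂(μ.prod μ) ≤
      ∫ p : X × X, Real.exp (∑ k, l k * (f k p.1 * f k p.2)) ∂(μ.prod μ) := by
  have h1 := kernel_hasSum (μ := μ) l f f hf hf
  have h2 := kernel_hasSum (μ := μ) l' f f hf hf
  refine hasSum_le (fun n => ?_) h2 h1
  refine div_le_div_of_nonneg_right (Finset.sum_le_sum fun w _ => ?_) (Nat.cast_nonneg _)
  refine mul_le_mul_of_nonneg_right ?_ (mul_self_nonneg _)
  refine (le_abs_self _).trans ?_
  rw [Finset.abs_prod]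
  exact Finset.prod_le_prod (fun i _ => abs_nonneg _) fun i _ => h _

/-- polarized positivity of a kernel -/
theorem kernel_pol {κ : Type*} [Fintype κ] (l : κ → ℝ) (hl : ∀ k, 0 ≤ l k)
    (f g : κ → X → ℝ) (hf : ∀ k, Continuous (f k)) (hg : ∀ k, Continuous (g k)) :
    2 * ∫ p : X × X, Real.exp (∑ k, l k * (f k p.1 * g k p.2)) ∂(μ.prod μ) ≤
      (∫ p : X × X, Real.exp (∑ k, l k * (f k p.1 * f k p.2)) ∂(μ.prod μ)) +
      ∫ p : X × X, Real.exp (∑ k, l k * (g k p.1 * g k p.2)) ∂(μ.prod μ) := by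
  have h1 := (kernel_hasSum (μ := μ) l f f hf hf).add (kernel_hasSum (μ := μ) l g g hg hg)
  have h2 := (kernel_hasSum (μ := μ) l f g hf hg).mul_left 2
  refine hasSum_le (fun n => ?_) h2 h1
  rw [← add_div, ← mul_div_assoc]
  refine div_le_div_of_nonneg_right ?_ (Nat.cast_nonneg _)
  rw [Finset.mul_sum, ← Finset.sum_add_distrib]
  refine Finset.sum_le_sum fun w _ => ?_
  have h3 : 0 ≤ ∏ i, l (w i) := Finset.prod_nonneg fun i _ => hl _
  have h4 := sq_nonneg ((∫ x, ∏ i, f (w i) x ∂μ) - ∫ x, ∏ i, g (w i) x ∂μ)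
  nlinarith only [h3, h4, mul_nonneg h3 h4]

end Kernel

section Ratio

variable {G : Type*} [AddCommGroup G] [TopologicalSpace G] [IsTopologicalAddGroup G]
  [CompactSpace G] [SecondCountableTopology G] [MeasurableSpace G] [BorelSpace G]
  (μ : Measure G) [μ.IsAddHaarMeasure] [IsProbabilityMeasure μ]
  {κ : Type*} [Fintype κ] (J : κ → ℝ) (χ : κ → Chr G)

omit [IsTopologicalAddGroup G] [CompactSpace G] [SecondCountableTopology G] [MeasurableSpace G]
  [BorelSpace G] [Fintype κ] in
theorem Ct_rot (p q : κ → ℝ) (e : κ) (x y : G) :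
    Ct χ (p + q) e (x + y) = Ct χ p e x * Ct χ q e y - St χ p e x * St χ q e y := by
  unfold Ct St
  rw [(χ e).c_add, (χ e).s_add, Pi.add_apply, Real.cos_add, Real.sin_add]
  ring

omit [IsTopologicalAddGroup G] [CompactSpace G] [SecondCountableTopology G] [MeasurableSpace G]
  [BorelSpace G] [Fintype κ] in
theorem Ct_rot' (p q : κ → ℝ) (e : κ) (x y : G) :
    Ct χ (p - q) e (x - y) = Ct χ p e x * Ct χ q e y + St χ p e x * St χ q e y := by
  unfold Ct St
  rw [sub_eq_add_neg x y, (χ e).c_add, (χ e).s_add, (χ e).c_neg, (χ e).s_neg, Pi.sub_apply,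
    Real.cos_sub, Real.sin_sub]
  ring

variable (h2 : ∀ g : G, ∃ h : G, h + h = g)

include h2 in
/-- product of two partition functions with different couplings -/
theorem Zr_mul_Zr (J K : κ → ℝ) (p q : κ → ℝ) :
    Zr μ J χ (p + q) * Zr μ K χ (p - q) = ∫ a : G × G, Real.exp (∑ k : κ ⊕ κ,
      (Sum.elim (fun e => J e + K e) (fun e => K e - J e) k) *
      ((Sum.elim (fun e => Ct χ p e) (fun e => St χ p e) k a.1) *
        (Sum.elim (fun e => Ct χ q e) (fun e => St χ q e) k a.2))) ∂(μ.prod μ) := by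
  have hF : Continuous (fun a : G × G => Real.exp (Ht J χ (p + q) a.1) *
      Real.exp (Ht K χ (p - q) a.2)) :=
    ((Real.continuous_exp.comp (cont_Ht J χ _)).comp continuous_fst).mul
      ((Real.continuous_exp.comp (cont_Ht K χ _)).comp continuous_snd)
  rw [Zr_eq, Zr_eq, ← integral_prod_mul, ← integral_rot μ h2 hF]
  congr 1
  ext a
  rw [← Real.exp_add]
  congr 1
  unfold Ht
  rw [Fintype.sum_sum_type, ← Finset.sum_add_distrib, ← Finset.sum_add_distrib]
  refine Finset.sum_congr rfl fun e _ => ?_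
  rw [Ct_rot, Ct_rot']
  simp only [Sum.elim_inl, Sum.elim_inr]
  ring

include h2 in
/-- **the ratio `Z(y)/Z(0)` decreases if couplings are increased** -/
theorem ratio_coupling {J K : κ → ℝ} (hJ : ∀ e, 0 ≤ J e) (hK : ∀ e, J e ≤ K e) (y : κ → ℝ) :
    Zr μ K χ y * Zr μ J χ 0 ≤ Zr μ J χ y * Zr μ K χ 0 := by
  obtain ⟨p, hp⟩ : ∃ p : κ → ℝ, p = fun e => y e / 2 := ⟨_, rfl⟩
  have e1 : p + p = y := by
    ext e
    rw [Pi.add_apply, hp]
    ring
  have a1 := Zr_mul_Zr μ χ h2 K J p p
  have a2 := Zr_mul_Zr μ χ h2 J K p p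
  rw [e1, sub_self] at a1 a2
  rw [a1, a2]
  have e2 : ∀ a : G × G, (∑ k : κ ⊕ κ,
      (Sum.elim (fun e => K e + J e) (fun e => J e - K e) k) *
      ((Sum.elim (fun e => Ct χ p e) (fun e => St χ p e) k a.1) *
        (Sum.elim (fun e => Ct χ p e) (fun e => St χ p e) k a.2))) =
      ∑ k : κ ⊕ κ,
      (Sum.elim (fun e => J e + K e) (fun e => J e - K e) k) *
      ((Sum.elim (fun e => Ct χ p e) (fun e => St χ p e) k a.1) *
        (Sum.elim (fun e => Ct χ p e) (fun e => St χ p e) k a.2)) := by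
    intro a
    refine Finset.sum_congr rfl fun k _ => ?_
    rcases k with e | e
    · simp only [Sum.elim_inl]
      rw [add_comm (K e)]
    · rfl
  simp only [e2]
  refine kernel_le (μ := μ) _ _ ?_ _ ?_
  · rintro (e | e)
    · simp only [Sum.elim_inl]
      rw [abs_of_nonneg]
      have := hJ e
      have := hK e
      linarith
    · simp only [Sum.elim_inr]
      rw [abs_le]
      have := hK e
      constructor <;> linarith
  · rintro (e | e)
    · exact cont_Ct χ p e
    · exact cont_St χ p e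

include h2 in
/-- polarization inequality for real twists -/
theorem Zr_pol (hJ : ∀ e, 0 ≤ J e) (y g : κ → ℝ) :
    2 * (Zr μ J χ y * Zr μ J χ g) ≤ (Zr μ J χ (y + g) + Zr μ J χ (y - g)) * Zr μ J χ 0 := by
  obtain ⟨p, hp⟩ : ∃ p : κ → ℝ, p = fun e => (y e + g e) / 2 := ⟨_, rfl⟩
  obtain ⟨q, hq⟩ : ∃ q : κ → ℝ, q = fun e => (y e - g e) / 2 := ⟨_, rfl⟩
  have e1 : p + q = y := by
    ext e
    rw [Pi.add_apply, hp, hq]
    ring
  have e2 : p - q = g := by
    ext e
    rw [Pi.sub_apply, hp, hq]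
    ring
  have e3 : p + p = y + g := by
    ext e
    rw [Pi.add_apply, Pi.add_apply, hp]
    ring
  have e4 : q + q = y - g := by
    ext e
    rw [Pi.add_apply, Pi.sub_apply, hq]
    ring
  have a1 := Zr_mul_Zr μ χ h2 J J p q
  have a2 := Zr_mul_Zr μ χ h2 J J p p
  have a3 := Zr_mul_Zr μ χ h2 J J q q
  rw [e1, e2] at a1
  rw [e3, sub_self] at a2
  rw [e4, sub_self] at a3
  rw [add_mul, a1, a2, a3]
  refine kernel_pol (μ := μ) _ ?_ _ _ ?_ ?_
  · rintro (e | e)
    · simp only [Sum.elim_inl]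
      have := hJ e
      linarith
    · simp only [Sum.elim_inr]
      rw [sub_self]
  · rintro (e | e)
    · exact cont_Ct χ p e
    · exact cont_St χ p e
  · rintro (e | e)
    · exact cont_Ct χ q e
    · exact cont_St χ q e

omit [SecondCountableTopology G] in
/-- a partition function with fewer pinned spins as a mean of partition functions with a twist -/
theorem Zr_avg (P : G →+ G) (hP : Continuous P) (y : κ → ℝ) (t : G → κ → ℝ)
    (ht : ∀ x e, Real.cos (t x e) = (χ e).c x ∧ Real.sin (t x e) = (χ e).s x) :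
    ∀ x, ∫ z, Real.exp (Ht J χ y (x + P z)) ∂μ =
      Zr μ J (fun e => (χ e).comp P hP) (y + t x) := by
  intro x
  unfold Zr Ht
  congr 1
  ext z
  congr 1
  refine Finset.sum_congr rfl fun e _ => ?_
  unfold Ct Chr.comp
  simp only
  rw [(χ e).c_add, (χ e).s_add, Pi.add_apply, Real.cos_add, Real.sin_add, (ht x e).1,
    (ht x e).2]
  ring

/-- continuity of the partition function in the twist -/
theorem Zr_cont_x (P : G →+ G) (hP : Continuous P) (y : κ → ℝ) :
    Continuous (fun x => ∫ z, Real.exp (Ht J χ y (x + P z)) ∂μ) := by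
  have hc : Continuous (Function.uncurry fun (x z : G) => Real.exp (Ht J χ y (x + P z))) :=
    (Real.continuous_exp.comp (cont_Ht J χ y)).comp
      (continuous_fst.add (hP.comp continuous_snd))
  have h1 := continuous_parametric_integral_of_continuous (μ := μ) hc
    (isCompact_univ (X := G))
  simpa using h1

theorem Zr_fub (P : G →+ G) (hP : Continuous P) (y : κ → ℝ) :
    Zr μ J χ y = ∫ x, ∫ z, Real.exp (Ht J χ y (x + P z)) ∂μ ∂μ := by
  have hc : Continuous (Function.uncurry fun (x z : G) => Real.exp (Ht J χ y (x + P z))) :=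
    (Real.continuous_exp.comp (cont_Ht J χ y)).comp
      (continuous_fst.add (hP.comp continuous_snd))
  rw [integral_integral_swap (cint hc)]
  have e2 : ∀ z, ∫ x, Real.exp (Ht J χ y (x + P z)) ∂μ = Zr μ J χ y := by
    intro z
    rw [Zr_eq]
    exact integral_add_right_eq_self (μ := μ) (fun x => Real.exp (Ht J χ y x)) (P z)
  simp_rw [e2]
  simp

include h2 in
/-- **the ratio `Z(y)/Z(0)` decreases if spins are pinned** -/
theorem ratio_pin (hJ : ∀ e, 0 ≤ J e) (P : G →+ G) (hP : Continuous P) (y : κ → ℝ) :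
    Zr μ J (fun e => (χ e).comp P hP) y * Zr μ J χ 0 ≤
      Zr μ J χ y * Zr μ J (fun e => (χ e).comp P hP) 0 := by
  choose t ht using fun (x : G) (e : κ) => (χ e).exists_angle x
  obtain ⟨Z, hZ⟩ : ∃ Z : (κ → ℝ) → ℝ, Z = fun y => Zr μ J (fun e => (χ e).comp P hP) y :=
    ⟨_, rfl⟩
  have hav : ∀ (y : κ → ℝ) (x : G), ∫ z, Real.exp (Ht J χ y (x + P z)) ∂μ = Z (y + t x) := by
    intro y x
    rw [hZ]
    exact Zr_avg μ J χ P hP y t ht x
  have hneg : ∀ (y : κ → ℝ) (x : G), Z (y + t (-x)) = Z (y - t x) := by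
    intro y x
    rw [hZ]
    simp only
    unfold Zr
    congr 1
    ext z
    congr 1
    refine Finset.sum_congr rfl fun e _ => ?_
    rw [Pi.add_apply, Pi.sub_apply, Real.cos_add, Real.sin_add, Real.cos_sub, Real.sin_sub,
      (ht x e).1, (ht x e).2, (ht (-x) e).1, (ht (-x) e).2, (χ e).c_neg, (χ e).s_neg]
    ring
  have hcy : Continuous fun x => Z (y + t x) := by
    have := Zr_cont_x μ J χ P hP y
    simpa only [hav] using this
  have hc0 : Continuous fun x => Z (0 + t x) := by
    have := Zr_cont_x μ J χ P hP 0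
    simpa only [hav] using this
  have f1 : Zr μ J χ y = ∫ x, Z (y + t x) ∂μ := by
    rw [Zr_fub μ J χ P hP y]
    simp only [hav]
  have f1' : Zr μ J χ y = ∫ x, Z (y - t x) ∂μ := by
    rw [f1, ← integral_neg_eq_self]
    simp only [hneg]
  have f0 : Zr μ J χ 0 = ∫ x, Z (0 + t x) ∂μ := by
    rw [Zr_fub μ J χ P hP 0]
    simp only [hav]
  have hcy' : Continuous fun x => Z (y - t x) := by
    have h3 : (fun x => Z (y - t x)) = fun x => Z (y + t (-x)) := by
      ext x
      rw [hneg]
    rw [h3]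
    exact hcy.comp continuous_neg
  have key : ∀ x, 2 * (Z y * Z (0 + t x)) ≤ (Z (y + t x) + Z (y - t x)) * Z 0 := by
    intro x
    rw [zero_add, hZ]
    exact Zr_pol μ J (fun e => (χ e).comp P hP) h2 hJ y (t x)
  have hint := integral_mono (μ := μ) (f := fun x => 2 * (Z y * Z (0 + t x)))
    (g := fun x => (Z (y + t x) + Z (y - t x)) * Z 0)
    (cint (continuous_const.mul (continuous_const.mul hc0)))
    (cint ((hcy.add hcy').mul continuous_const)) key
  rw [integral_const_mul, integral_const_mul, integral_mul_const,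
    integral_add (cint hcy) (cint hcy'), ← f1, ← f1', ← f0] at hint
  have e5 : Zr μ J (fun e => (χ e).comp P hP) y = Z y := by rw [hZ]
  have e6 : Zr μ J (fun e => (χ e).comp P hP) 0 = Z 0 := by rw [hZ]
  rw [e5, e6]
  linarith

end Ratio

end Vale.Agent.P159.T1.H409
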