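import Vale.Agent.P159.T1.H409.Loc
import Vale.Agent.P159.T1.H43.Glb

/-!
Upper bound of the quadratic form of a region with free spins by the stiffness, lower bound of the
twisted partition function, monotonicity of Gaussian bounds.
-/

set_option linter.all false
set_option autoImplicit false

open MeasureTheory Filter Topology
open scoped BigOperators

namespace Vale.Agent.P159.T1.H409

open Vale.Agent.P159 Vale.Agent.P159.UJ Vale.Agent.P159.H950 Vale.Agent.P159.T1.H931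
  Vale.Agent.P159.T1.H43

/-! ### Boundary cells -/

/-- cells of the region with a neighbour outside -/
noncomputable def bdR (R : Finset (ℤ × ℤ)) : Finset (ℤ × ℤ) := by
  classical exact R.filter fun c => (c.1 + 1, c.2) ∉ R ∨ (c.1 - 1, c.2) ∉ R ∨
    (c.1, c.2 + 1) ∉ R ∨ (c.1, c.2 - 1) ∉ R

theorem mem_bdR {R : Finset (ℤ × ℤ)} {c : ℤ × ℤ} : c ∈ bdR R ↔ c ∈ R ∧
    ((c.1 + 1, c.2) ∉ R ∨ (c.1 - 1, c.2) ∉ R ∨ (c.1, c.2 + 1) ∉ R ∨ (c.1, c.2 - 1) ∉ R) := by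
  unfold bdR
  rw [Finset.mem_filter]

/-- a boundary cell between a cell of the region and a cell outside -/
theorem exists_bdR {R : Finset (ℤ × ℤ)} (n : ℕ) : ∀ (c c' : ℤ × ℤ), c ∈ R → c' ∉ R →
    (c.1 - c'.1).natAbs + (c.2 - c'.2).natAbs = n →
    ∃ d ∈ bdR R, min c.1 c'.1 ≤ d.1 ∧ d.1 ≤ max c.1 c'.1 ∧ min c.2 c'.2 ≤ d.2 ∧
      d.2 ≤ max c.2 c'.2 := by
  induction n with
  | zero =>
    intro c c' h1 h2 h3
    exfalso
    have e : c = c' := by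
      ext
      · omega
      · omega
    exact h2 (e ▸ h1)
  | succ n ih =>
    intro c c' h1 h2 h3
    -- one step of `c'` towards `c`
    obtain ⟨c'', a1, a2, a3⟩ : ∃ c'' : ℤ × ℤ, (c.1 - c''.1).natAbs + (c.2 - c''.2).natAbs = n ∧
        (min c.1 c'.1 ≤ c''.1 ∧ c''.1 ≤ max c.1 c'.1 ∧ min c.2 c'.2 ≤ c''.2 ∧
          c''.2 ≤ max c.2 c'.2) ∧ (c' = (c''.1 + 1, c''.2) ∨ c' = (c''.1 - 1, c''.2) ∨
          c' = (c''.1, c''.2 + 1) ∨ c' = (c''.1, c''.2 - 1)) := by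
      by_cases k1 : c'.1 < c.1
      · refine ⟨(c'.1 + 1, c'.2), by simp only; omega, by simp only; omega, Or.inr (Or.inl ?_)⟩
        ext
        · simp
        · simp
      by_cases k2 : c.1 < c'.1
      · refine ⟨(c'.1 - 1, c'.2), by simp only; omega, by simp only; omega, Or.inl ?_⟩
        ext
        · simp
        · simp
      by_cases k3 : c'.2 < c.2
      · refine ⟨(c'.1, c'.2 + 1), by simp only; omega, by simp only; omega,
          Or.inr (Or.inr (Or.inr ?_))⟩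
        ext
        · simp
        · simp
      by_cases k4 : c.2 < c'.2
      · refine ⟨(c'.1, c'.2 - 1), by simp only; omega, by simp only; omega,
          Or.inr (Or.inr (Or.inl ?_))⟩
        ext
        · simp
        · simp
      · exfalso
        omega
    by_cases hc : c'' ∈ R
    · refine ⟨c'', mem_bdR.2 ⟨hc, ?_⟩, a2⟩
      rcases a3 with e | e | e | e
      · exact Or.inl (e ▸ h2)
      · exact Or.inr (Or.inl (e ▸ h2))
      · exact Or.inr (Or.inr (Or.inl (e ▸ h2)))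
      · exact Or.inr (Or.inr (Or.inr (e ▸ h2)))
    · obtain ⟨d, hd, b1, b2, b3, b4⟩ := ih c c'' h1 hc a1
      exact ⟨d, hd, by omega, by omega, by omega, by omega⟩

/-- **number of cells in incomplete tiles** -/
theorem card_cutR_le {l : ℕ} (hl : 1 ≤ l) (R : Finset (ℤ × ℤ)) :
    (cutR R l).card ≤ (2 * l + 1) ^ 2 * (bdR R).card := by
  classical
  have hsub : cutR R l ⊆ (bdR R).biUnion fun d =>
      Finset.Icc (d.1 - l) (d.1 + l) ×ˢ Finset.Icc (d.2 - l) (d.2 + l) := by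
    intro c hc
    unfold cutR at hc
    rw [Finset.mem_filter, Finset.not_subset] at hc
    obtain ⟨h1, c', h2, h3⟩ := hc
    have hct : c ∈ blk (crn l (tl l c)) l := (mem_tile hl).2 rfl
    rw [mem_blk] at hct h2
    obtain ⟨d, hd, b1, b2, b3, b4⟩ := exists_bdR _ c c' h1 h3 rfl
    rw [Finset.mem_biUnion]
    refine ⟨d, hd, ?_⟩
    rw [Finset.mem_product, Finset.mem_Icc, Finset.mem_Icc]
    omega
  refine (Finset.card_le_card hsub).trans ?_
  refine (Finset.card_biUnion_le).trans ?_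
  rw [mul_comm, ← smul_eq_mul, ← Finset.sum_const]
  refine Finset.sum_le_sum fun d _ => ?_
  rw [Finset.card_product, Int.card_Icc, Int.card_Icc]
  have e1 : (d.1 + l + 1 - (d.1 - l)).toNat = 2 * l + 1 := by omega
  have e2 : (d.2 + l + 1 - (d.2 - l)).toNat = 2 * l + 1 := by omega
  rw [e1, e2, pow_two]

/-- thin boundary -/
def Thin (R : ℕ → Finset (ℤ × ℤ)) : Prop :=
  ∀ l : ℕ, 1 ≤ l → Tendsto (fun N : ℕ => ((cutR (R N) l).card : ℝ) / (N : ℝ) ^ 2) atTop (𝓝 0)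

theorem thin_of_bd {R : ℕ → Finset (ℤ × ℤ)}
    (h : Tendsto (fun N : ℕ => ((bdR (R N)).card : ℝ) / (N : ℝ) ^ 2) atTop (𝓝 0)) : Thin R := by
  intro l hl
  have h1 := h.const_mul ((2 * (l : ℝ) + 1) ^ 2)
  rw [mul_zero] at h1
  refine squeeze_zero (fun N => by positivity) (fun N => ?_) h1
  have h2 : ((cutR (R N) l).card : ℝ) ≤ (2 * (l : ℝ) + 1) ^ 2 * (bdR (R N)).card := by
    exact_mod_cast card_cutR_le hl (R N)
  rw [← mul_div_assoc]
  exact div_le_div_of_nonneg_right h2 (by positivity)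

/-- a linear bound of the number of boundary cells -/
theorem thin_of_le {R : ℕ → Finset (ℤ × ℤ)} {C : ℝ}
    (h : ∀ᶠ N : ℕ in atTop, ((bdR (R N)).card : ℝ) ≤ C * N) : Thin R := by
  apply thin_of_bd
  have h1 : Tendsto (fun N : ℕ => C * (N : ℝ)⁻¹) atTop (𝓝 0) := by
    simpa using (tendsto_inv_atTop_nhds_zero_nat (𝕜 := ℝ)).const_mul C
  refine squeeze_zero' (Eventually.of_forall fun N => by positivity) ?_ h1
  filter_upwards [h, eventually_ge_atTop 1] with N h2 hN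
  have hN0 : (0 : ℝ) < N := by exact_mod_cast hN
  rw [div_le_iff₀ (by positivity)]
  refine h2.trans (le_of_eq ?_)
  field_simp

/-! ### Upper bound of the quadratic form -/

/-- upper bound for the twisted partition function of regions with a thin boundary -/
theorem ub_asymR {b : ℝ} (hb : 0 < b) {Y : ℝ} (hY : Tendsto (fun l : ℕ => stiff l b) atTop (𝓝 Y))
    {f : SF} (hf : VF f) (K : ℕ) {R : ℕ → Finset (ℤ × ℤ)}
    (hR : ∀ᶠ N : ℕ in atTop, R N ⊆ bx (K * N)) (hcut : Thin R) {ε : ℝ} (hε : 0 < ε) :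
    ∀ᶠ N : ℕ in atTop, rR b (R N) ((N : ℝ)⁻¹ • f N) ≤
        Real.exp (Y * (nR (R N) (f N) / (N : ℝ) ^ 2) / 2 + ε) := by
  obtain ⟨M, hM⟩ := hf.bdd K
  obtain ⟨B, hB0, hB⟩ := hf.norm K
  have ht : ∀ᶠ l : ℕ in atTop, stiff l b < Y + ε / (4 * (B + 1)) :=
    hY.eventually (gt_mem_nhds (by
      have : 0 < ε / (4 * (B + 1)) := by positivity
      linarith))
  obtain ⟨l, hl2, hl⟩ := (ht.and (eventually_ge_atTop 1)).exists
  have hS0 : 0 ≤ stiff l b := UJ.h3_stiff_nonneg hb hl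
  have hSb : stiff l b ≤ b := UJ.h3_stiff_le hb hl
  obtain ⟨η, hη, hη1, hη2⟩ : ∃ η : ℝ, 0 < η ∧ η ≤ 1 ∧ 3 * η * b * (B + 1) ≤ ε / 4 := by
    refine ⟨min 1 (ε / 4 / (3 * b * (B + 1))), by positivity, min_le_left _ _, ?_⟩
    have h1 : min 1 (ε / 4 / (3 * b * (B + 1))) ≤ ε / 4 / (3 * b * (B + 1)) := min_le_right _ _
    have h2 : 0 < 3 * b * (B + 1) := by positivity
    rw [le_div_iff₀ h2] at h1
    linarith
  have hN1 : Tendsto (fun N : ℕ => (N : ℝ)⁻¹) atTop (𝓝 0) := tendsto_inv_atTop_nhds_zero_nat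
  have l1 : Tendsto (fun N : ℕ => |M| * (N : ℝ)⁻¹) atTop (𝓝 0) := by
    simpa using hN1.const_mul |M|
  have l2 : Tendsto (fun N : ℕ => 4 * b * (l : ℝ) ^ 2 * (|M| * (N : ℝ)⁻¹)) atTop (𝓝 0) := by
    simpa using l1.const_mul (4 * b * (l : ℝ) ^ 2)
  have l3 : Tendsto (fun N : ℕ => (1 + 1 / η) * (3 * b) *
      (nR (bx (K * N)) (f N - corF l (f N)) / (N : ℝ) ^ 2)) atTop (𝓝 0) := by
    simpa using (hf.osc K l hl).const_mul ((1 + 1 / η) * (3 * b))
  have l4 : Tendsto (fun N : ℕ => K5 (2 * b * (l : ℝ) ^ 2) * M ^ 4 * (2 * K) ^ 2 *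
      ((N : ℝ)⁻¹ * (N : ℝ)⁻¹)) atTop (𝓝 0) := by
    simpa using (hN1.mul hN1).const_mul (K5 (2 * b * (l : ℝ) ^ 2) * M ^ 4 * (2 * K) ^ 2)
  have l5 : Tendsto (fun N : ℕ => 2 * b * M ^ 2 * (((cutR (R N) l).card : ℝ) / (N : ℝ) ^ 2)) atTop
      (𝓝 0) := by
    simpa using (hcut l hl).const_mul (2 * b * M ^ 2)
  have hε4 : (0 : ℝ) < ε / 8 := by positivity
  filter_upwards [l1.eventually (ge_mem_nhds one_pos), l2.eventually (ge_mem_nhds one_pos),
    l3.eventually (ge_mem_nhds hε4), l4.eventually (ge_mem_nhds hε4),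
    l5.eventually (ge_mem_nhds hε4), eventually_ge_atTop 1, hR] with N e1 e2 e3 e4 e5 e6 hRsub
  have hN0 : (0 : ℝ) < N := by exact_mod_cast e6
  have hδ0 : 0 ≤ |M| * (N : ℝ)⁻¹ := by positivity
  have h := ub_core hb hl (R N) ((N : ℝ)⁻¹ • f N) hη hη1 hδ0 e1 e2 (fun c hc d => by
    rw [Pi.smul_apply, Pi.smul_apply, smul_eq_mul, abs_mul, abs_of_pos (inv_pos.2 hN0), mul_comm]
    exact mul_le_mul_of_nonneg_right ((hM N e6 c (hRsub hc) d).trans (le_abs_self M))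
      (inv_nonneg.2 hN0.le))
  refine h.trans (Real.exp_le_exp.2 ?_)
  rw [corF_smul, ← smul_sub, nR_div, nR_div]
  obtain ⟨n, hn⟩ : ∃ n, n = nR (R N) (f N) / (N : ℝ) ^ 2 := ⟨_, rfl⟩
  have hn0 : 0 ≤ n := by rw [hn]; exact div_nonneg (nR_nonneg _ _) (by positivity)
  have hnB : n ≤ B := by
    rw [hn]
    exact (div_le_div_of_nonneg_right (nR_mono hRsub _) (by positivity)).trans (hB N e6)
  rw [← hn]
  have t1 : (1 + 1 / η) * (3 * b) * (nR (R N) (f N - corF l (f N)) / (N : ℝ) ^ 2) ≤ ε / 8 := by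
    refine le_trans (mul_le_mul_of_nonneg_left (div_le_div_of_nonneg_right
      (nR_mono hRsub _) (by positivity)) (by positivity)) e3
  have hcardR : ((R N).card : ℝ) ≤ (2 * K) ^ 2 * (N : ℝ) ^ 2 := by
    have : ((R N).card : ℝ) ≤ ((bx (K * N)).card : ℝ) := by
      exact_mod_cast Finset.card_le_card hRsub
    rw [card_bx] at this
    push_cast at this
    linarith
  have hK : 0 ≤ K5 (2 * b * (l : ℝ) ^ 2) := K5_nonneg (by positivity)
  have t2 : K5 (2 * b * (l : ℝ) ^ 2) * (|M| * (N : ℝ)⁻¹) ^ 4 * (R N).card ≤ ε / 8 := by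
    refine le_trans (mul_le_mul_of_nonneg_left hcardR (by positivity)) (le_trans (le_of_eq ?_) e4)
    have hM4 : |M| ^ 4 = M ^ 4 := by
      rw [show (4 : ℕ) = 2 * 2 by norm_num, pow_mul, pow_mul, sq_abs]
    rw [mul_pow, hM4]
    field_simp
  have t3 : 2 * b * (|M| * (N : ℝ)⁻¹) ^ 2 * (cutR (R N) l).card ≤ ε / 8 := by
    refine le_trans (le_of_eq ?_) e5
    rw [mul_pow, sq_abs]
    field_simp
  have t4 : (1 + η) ^ 2 * stiff l b * n / 2 ≤ Y * n / 2 + ε / 2 := by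
    have a1 : (1 + η) ^ 2 * stiff l b ≤ Y + ε / (4 * (B + 1)) + 3 * η * b := by
      have : (1 + η) ^ 2 ≤ 1 + 3 * η := by nlinarith only [hη, hη1]
      have h5 : (1 + η) ^ 2 * stiff l b ≤ (1 + 3 * η) * stiff l b :=
        mul_le_mul_of_nonneg_right this hS0
      have h6 : 3 * η * stiff l b ≤ 3 * η * b := mul_le_mul_of_nonneg_left hSb (by positivity)
      linarith
    have a2 : ε / (4 * (B + 1)) * n ≤ ε / 4 := by
      have : ε / (4 * (B + 1)) * n ≤ ε / (4 * (B + 1)) * (B + 1) :=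
        mul_le_mul_of_nonneg_left (by linarith) (by positivity)
      refine this.trans (le_of_eq ?_)
      field_simp
    have a3 : 3 * η * b * n ≤ ε / 4 := by
      have : 3 * η * b * n ≤ 3 * η * b * (B + 1) :=
        mul_le_mul_of_nonneg_left (by linarith) (by positivity)
      linarith
    have a4 := mul_le_mul_of_nonneg_right a1 hn0
    rw [add_mul, add_mul] at a4
    linarith
  linarith

/-- upper bound for the quadratic form of wired regions with a thin boundary -/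
theorem ubqR {b : ℝ} (hb : 0 < b) {Y : ℝ} (hY : Tendsto (fun l : ℕ => stiff l b) atTop (𝓝 Y))
    {f : SF} (hf : VF f) (K : ℕ) {R : ℕ → Finset (ℤ × ℤ)}
    (hR : ∀ᶠ N : ℕ in atTop, R N ⊆ bx (K * N)) (hcut : Thin R) {ε : ℝ} (hε : 0 < ε) :
    ∀ᶠ N : ℕ in atTop, qR b (R N) (f N) / (N : ℝ) ^ 2 ≤
        Y * (nR (R N) (f N) / (N : ℝ) ^ 2) + ε := by
  filter_upwards [ub_asymR hb hY hf K hR hcut (half_pos hε)] with N hN
  have h := (rR_ge hb.le (R N) ((N : ℝ)⁻¹ • f N)).trans hN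
  rw [Real.exp_le_exp, qR_div] at h
  linarith

/-- free spins may be added: pinned cells and a thin boundary -/
theorem qI_le_qR {b : ℝ} (hb : 0 ≤ b) {R R0 : Finset (ℤ × ℤ)} {I : Set (ℤ × ℤ)}
    (h0 : R0 ⊆ R) (hI : intR R0 ⊆ I) (y : Fld) :
    qI b R I y ≤ qR b R0 y + b * nR (R \ R0) y := by
  classical
  have h1 : qI b R I y ≤ qI b R (intR R0) y :=
    qI_mono hb (Finset.Subset.refl R) (fun c _ t => ⟨fun h => hI h, fun h => hI h⟩) y
  have h2 : R0 ∪ (R \ R0) = R := Finset.union_sdiff_of_subset h0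
  have h3 := qI_pinned hb (Finset.disjoint_sdiff : Disjoint R0 (R \ R0)) (I := intR R0)
    (fun c hc t => ⟨fun h => (Finset.mem_sdiff.1 hc).2 (mem_intR_hu h),
      fun h => (Finset.mem_sdiff.1 hc).2 (mem_intR_hv h)⟩) y
  rw [h2] at h3
  exact h1.trans h3

/-- **upper bound for the quadratic form of regions with free spins** -/
theorem ubqI {b : ℝ} (hb : 0 < b) {Y : ℝ} (hY : Tendsto (fun l : ℕ => stiff l b) atTop (𝓝 Y))
    {f : SF} (hf : VF f) (K : ℕ) {R R0 : ℕ → Finset (ℤ × ℤ)} {I : ℕ → Set (ℤ × ℤ)}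
    (hR : ∀ᶠ N : ℕ in atTop, R N ⊆ bx (K * N)) (h0 : ∀ᶠ N : ℕ in atTop, R0 N ⊆ R N)
    (hI : ∀ᶠ N : ℕ in atTop, intR (R0 N) ⊆ I N) (hcut : Thin R0)
    (hrest : Tendsto (fun N : ℕ => nR (R N \ R0 N) (f N) / (N : ℝ) ^ 2) atTop (𝓝 0))
    (hY0 : 0 ≤ Y) {ε : ℝ} (hε : 0 < ε) :
    ∀ᶠ N : ℕ in atTop, qI b (R N) (I N) (f N) / (N : ℝ) ^ 2 ≤
        Y * (nR (R N) (f N) / (N : ℝ) ^ 2) + ε := by
  have h1 := ubqR hb hY hf K (R := R0) (by
    filter_upwards [hR, h0] with N a1 a2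
    exact a2.trans a1) hcut (half_pos hε)
  have h2 : Tendsto (fun N : ℕ => b * (nR (R N \ R0 N) (f N) / (N : ℝ) ^ 2)) atTop (𝓝 0) := by
    simpa using hrest.const_mul b
  filter_upwards [h1, h2.eventually (ge_mem_nhds (half_pos hε)), h0, hI,
    eventually_ge_atTop 1] with N e1 e2 e3 e4 hN
  have hN0 : (0 : ℝ) < N := by exact_mod_cast hN
  have h3 := qI_le_qR hb.le e3 e4 (f N)
  have h4 : qI b (R N) (I N) (f N) / (N : ℝ) ^ 2 ≤
      (qR b (R0 N) (f N) + b * nR (R N \ R0 N) (f N)) / (N : ℝ) ^ 2 :=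
    div_le_div_of_nonneg_right h3 (by positivity)
  have h5 : nR (R0 N) (f N) / (N : ℝ) ^ 2 ≤ nR (R N) (f N) / (N : ℝ) ^ 2 :=
    div_le_div_of_nonneg_right (nR_mono e3 _) (by positivity)
  have h6 := mul_le_mul_of_nonneg_left h5 hY0
  rw [add_div, mul_div_assoc] at h4
  linarith

/-- the same in the form of `UBG` -/
theorem ubg_I {b : ℝ} (hb : 0 < b) {Y : ℝ} (hY : Tendsto (fun l : ℕ => stiff l b) atTop (𝓝 Y))
    {f : SF} (hf : VF f) (K : ℕ) {R R0 : ℕ → Finset (ℤ × ℤ)} {I : ℕ → Set (ℤ × ℤ)}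
    (hR : ∀ᶠ N : ℕ in atTop, R N ⊆ bx (K * N)) (h0 : ∀ᶠ N : ℕ in atTop, R0 N ⊆ R N)
    (hI : ∀ᶠ N : ℕ in atTop, intR (R0 N) ⊆ I N) (hcut : Thin R0)
    (hrest : Tendsto (fun N : ℕ => nR (R N \ R0 N) (f N) / (N : ℝ) ^ 2) atTop (𝓝 0))
    (hY0 : 0 ≤ Y) : UBG b Y R (fun N => chiI (R N) (I N)) f :=
  fun ε hε => ubqI hb hY hf K hR h0 hI hcut hrest hY0 hε

/-- the case `R0 = R` -/
theorem ubg_I' {b : ℝ} (hb : 0 < b) {Y : ℝ} (hY : Tendsto (fun l : ℕ => stiff l b) atTop (𝓝 Y))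
    {f : SF} (hf : VF f) (K : ℕ) {R : ℕ → Finset (ℤ × ℤ)} {I : ℕ → Set (ℤ × ℤ)}
    (hR : ∀ᶠ N : ℕ in atTop, R N ⊆ bx (K * N))
    (hI : ∀ᶠ N : ℕ in atTop, intR (R N) ⊆ I N) (hcut : Thin R)
    (hY0 : 0 ≤ Y) : UBG b Y R (fun N => chiI (R N) (I N)) f := by
  refine ubg_I hb hY hf K hR (Eventually.of_forall fun N => Finset.Subset.refl _) hI hcut ?_ hY0
  have e : ∀ N : ℕ, nR (R N \ R N) (f N) / (N : ℝ) ^ 2 = 0 := by
    intro N
    rw [Finset.sdiff_self]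
    simp [nR]
  simp only [e]
  exact tendsto_const_nhds

/-- lower bound of the twisted partition function -/
theorem lowU {b : ℝ} (hb : 0 < b) {Y : ℝ} (hY : Tendsto (fun l : ℕ => stiff l b) atTop (𝓝 Y))
    {f : SF} (hf : VF f) (K : ℕ) {R : ℕ → Finset (ℤ × ℤ)} {I : ℕ → Set (ℤ × ℤ)}
    (hR : ∀ᶠ N : ℕ in atTop, R N ⊆ bx (K * N))
    (hI : ∀ᶠ N : ℕ in atTop, intR (R N) ⊆ I N) (hcut : Thin R)
    (hY0 : 0 ≤ Y) (t : ℝ) {ε : ℝ} (hε : 0 < ε) :
    ∀ᶠ N : ℕ in atTop,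
      Real.exp (-ε - Y * t ^ 2 * nR (R N) (f N) / (2 * (N : ℝ) ^ 2)) * zI b (R N) (I N) 0 ≤
        zI b (R N) (I N) ((t / N) • f N) := by
  filter_upwards [lowerG hb.le (ubg_I' hb hY hf K hR hI hcut hY0) t hε] with N hN
  have e : -ε - Y * t ^ 2 * nR (R N) (f N) / (2 * (N : ℝ) ^ 2) =
      -(Y * t ^ 2 * nR (R N) (f N) / (2 * (N : ℝ) ^ 2) + ε) := by ring
  rw [e]
  exact hN

/-! ### Gaussian bounds -/

/-- **a Gaussian bound for a region with fewer cells and fewer pinned spins** -/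
theorem glb_mono {b : ℝ} (hb : 0 ≤ b) {Y : ℝ} {R R' : ℕ → Finset (ℤ × ℤ)}
    {I I' : ℕ → Set (ℤ × ℤ)} {f : SF}
    (hR : ∀ᶠ N : ℕ in atTop, R' N ⊆ R N)
    (hI : ∀ᶠ N : ℕ in atTop, ∀ c ∈ R' N, ∀ t, (hu c t ∈ I N → hu c t ∈ I' N) ∧
      (hv c t ∈ I N → hv c t ∈ I' N))
    (hf : ∀ᶠ N : ℕ in atTop, ∀ c ∈ R N, c ∉ R' N → ∀ d, f N c d = 0)
    (h : GLBG b Y R' (fun N => chiI (R' N) (I' N)) f) :
    GLBG b Y R (fun N => chiI (R N) (I N)) f := by
  obtain ⟨C, hC⟩ := h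
  refine ⟨C, fun t => ?_⟩
  filter_upwards [hC t, hR, hI, hf] with N h1 h2 h3 h4
  have h5 := zI_ratio_mono hb h2 h3 ((t / N) • f N)
  have p1 := zI_pos b (R' N) (I' N) 0
  have p2 := zI_pos b (R N) (I N) 0
  have e1 : nR (R' N) (f N) = nR (R N) (f N) := by
    unfold nR
    refine Finset.sum_subset h2 fun c hc hc' => ?_
    unfold sq2
    rw [h4 c hc hc', h4 c hc hc']
    ring
  rw [← e1]
  have h6 : zI b (R' N) (I' N) ((t / N) • f N) ≤
      Real.exp (C - Y * t ^ 2 * nR (R' N) (f N) / (2 * (N : ℝ) ^ 2)) *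
        zI b (R' N) (I' N) 0 := h1
  show zI b (R N) (I N) ((t / N) • f N) ≤
      Real.exp (C - Y * t ^ 2 * nR (R' N) (f N) / (2 * (N : ℝ) ^ 2)) * zI b (R N) (I N) 0
  refine le_of_mul_le_mul_right (a := zI b (R' N) (I' N) 0) ?_ p1
  calc zI b (R N) (I N) ((t / N) • f N) * zI b (R' N) (I' N) 0
      ≤ zI b (R' N) (I' N) ((t / N) • f N) * zI b (R N) (I N) 0 := h5
    _ ≤ (Real.exp (C - Y * t ^ 2 * nR (R' N) (f N) / (2 * (N : ℝ) ^ 2)) *
        zI b (R' N) (I' N) 0) * zI b (R N) (I N) 0 := mul_le_mul_of_nonneg_right h6 p2.le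
    _ = _ := by ring

/-- comparison with a region `W` some of whose cells may be missing in `R`, if all their vertices
are pinned -/
theorem glb_mono' {b : ℝ} (hb : 0 ≤ b) {Y : ℝ} {R W : ℕ → Finset (ℤ × ℤ)}
    {I I' : ℕ → Set (ℤ × ℤ)} {f : SF}
    (hW : ∀ᶠ N : ℕ in atTop, ∀ c ∈ W N, c ∈ R N ∨ ∀ t, hu c t ∉ I N ∧ hv c t ∉ I N)
    (hI : ∀ᶠ N : ℕ in atTop, ∀ c ∈ W N, c ∈ R N → ∀ t, (hu c t ∈ I N → hu c t ∈ I' N) ∧
      (hv c t ∈ I N → hv c t ∈ I' N))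
    (hf : ∀ᶠ N : ℕ in atTop, ∀ c ∈ R N, c ∉ W N → ∀ d, f N c d = 0)
    (hf' : ∀ᶠ N : ℕ in atTop, ∀ c ∈ W N, c ∉ R N → ∀ d, f N c d = 0)
    (h : GLBG b Y W (fun N => chiI (W N) (I' N)) f) :
    GLBG b Y R (fun N => chiI (R N) (I N)) f := by
  classical
  have h1 : GLBG b Y (fun N => R N ∪ (W N \ R N))
      (fun N => chiI (R N ∪ (W N \ R N)) (I N)) f := by
    refine glb_mono hb (R' := W) (I' := I') ?_ ?_ ?_ h
    · refine Eventually.of_forall fun N c hc => ?_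
      by_cases h2 : c ∈ R N
      · exact Finset.mem_union_left _ h2
      · exact Finset.mem_union_right _ (Finset.mem_sdiff.2 ⟨hc, h2⟩)
    · filter_upwards [hW, hI] with N a1 a2 c hc t
      by_cases h2 : c ∈ R N
      · exact a2 c hc h2 t
      · rcases a1 c hc with h3 | h3
        · exact absurd h3 h2
        · exact ⟨fun h4 => absurd h4 (h3 t).1, fun h4 => absurd h4 (h3 t).2⟩
    · filter_upwards [hf] with N a1 c hc hc' d
      rcases Finset.mem_union.1 hc with h2 | h2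
      · exact a1 c h2 hc' d
      · exact absurd (Finset.mem_sdiff.1 h2).1 hc'
  obtain ⟨C, hC⟩ := h1
  refine ⟨C, fun t => ?_⟩
  filter_upwards [hC t, hW, hf'] with N e1 e2 e3
  have hE : ∀ c ∈ W N \ R N, ∀ t, hu c t ∉ I N ∧ hv c t ∉ I N := by
    intro c hc
    obtain ⟨a1, a2⟩ := Finset.mem_sdiff.1 hc
    rcases e2 c a1 with h3 | h3
    · exact absurd h3 a2
    · exact h3
  have hz : ∀ c ∈ W N \ R N, ∀ d, f N c d = 0 := by
    intro c hc d
    obtain ⟨a1, a2⟩ := Finset.mem_sdiff.1 hc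
    exact e3 c a1 a2 d
  have p1 := zI_pinned b (Finset.disjoint_sdiff : Disjoint (R N) (W N \ R N)) hE ((t / N) • f N)
  have p2 := zI_pinned b (Finset.disjoint_sdiff : Disjoint (R N) (W N \ R N)) hE 0
  have p3 : ∑ c ∈ W N \ R N, ∑ t' : HT, b / 2 * Real.cos (((t / N) • f N) c t'.1) =
      ∑ c ∈ W N \ R N, ∑ t' : HT, b / 2 * Real.cos ((0 : Fld) c t'.1) := by
    refine Finset.sum_congr rfl fun c hc => Finset.sum_congr rfl fun t' _ => ?_
    rw [Pi.smul_apply, Pi.smul_apply, hz c hc, smul_zero]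
    rfl
  have p4 : nR (R N ∪ (W N \ R N)) (f N) = nR (R N) (f N) := by
    unfold nR
    rw [Finset.sum_union Finset.disjoint_sdiff]
    have : ∑ c ∈ W N \ R N, sq2 (f N) c = 0 := by
      refine Finset.sum_eq_zero fun c hc => ?_
      unfold sq2
      rw [hz c hc, hz c hc]
      ring
    rw [this, add_zero]
  have e4 : zI b (R N ∪ (W N \ R N)) (I N) ((t / N) • f N) ≤
      Real.exp (C - Y * t ^ 2 * nR (R N ∪ (W N \ R N)) (f N) / (2 * (N : ℝ) ^ 2)) *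
        zI b (R N ∪ (W N \ R N)) (I N) 0 := e1
  rw [p1, p2, p3, p4] at e4
  show zI b (R N) (I N) ((t / N) • f N) ≤
      Real.exp (C - Y * t ^ 2 * nR (R N) (f N) / (2 * (N : ℝ) ^ 2)) * zI b (R N) (I N) 0
  have p5 := Real.exp_pos (∑ c ∈ W N \ R N, ∑ t' : HT, b / 2 * Real.cos ((0 : Fld) c t'.1))
  refine le_of_mul_le_mul_left (a := Real.exp (∑ c ∈ W N \ R N, ∑ t' : HT,
    b / 2 * Real.cos ((0 : Fld) c t'.1))) ?_ p5
  refine e4.trans (le_of_eq ?_)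
  ring

end Vale.Agent.P159.T1.H409
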